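import Mathlib

/-!
Threshold widths of hypergraph properties (problem P063): definitions.

`HEdge n r` is the set of `r`-subsets of `[n]`; an `r`-uniform hypergraph on `[n]` is a finite
set of such edges; a family of hypergraphs is a finite set of hypergraphs.
-/

namespace Vale.Agent.H17.FK

/-- The `r`-subsets of `Fin n`: the possible edges of an `r`-uniform hypergraph on `[n]`. -/
abbrev HEdge (n r : ℕ) : Type := {s : Finset (Fin n) // s.card = r}

/-- `μ_p(P)`: the probability that the random `r`-uniform hypergraph on `[n]`, each edge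
present independently with probability `p`, lies in the family `P`. -/
noncomputable def mu (n r : ℕ) (p : ℝ) (P : Finset (Finset (HEdge n r))) : ℝ :=
  ∑ x ∈ P, p ^ x.card * (1 - p) ^ (Fintype.card (HEdge n r) - x.card)

/-- `p_a(P) = inf {p ∈ [0,1] : μ_p(P) ≥ a}`. -/
noncomputable def pThr (n r : ℕ) (a : ℝ) (P : Finset (Finset (HEdge n r))) : ℝ :=
  sInf {p : ℝ | 0 ≤ p ∧ p ≤ 1 ∧ a ≤ mu n r p P}

/-- The threshold width `w_ε(P) = p_{1-ε}(P) - p_ε(P)`. -/
noncomputable def width (n r : ℕ) (ε : ℝ) (P : Finset (Finset (HEdge n r))) : ℝ :=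
  pThr n r (1 - ε) P - pThr n r ε P

/-- The degree of the vertex `v` in the hypergraph `x`: the number of edges of `x`
containing `v`. -/
def deg (n r : ℕ) (x : Finset (HEdge n r)) (v : Fin n) : ℕ :=
  (x.filter fun e => v ∈ e.1).card

/-- The family `P` is monotone in the vertex degrees: if `x ∈ P` and every vertex has at least
the same degree in `y` as in `x`, then `y ∈ P`. -/
def DegMono (n r : ℕ) (P : Finset (Finset (HEdge n r))) : Prop :=
  ∀ x ∈ P, ∀ y : Finset (HEdge n r), (∀ v, deg n r x v ≤ deg n r y v) → y ∈ P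

section core

variable {E : Type} [Fintype E] [DecidableEq E]

/-- The weight of the subset `x` of `E` under the `p`-biased product measure. -/
noncomputable def wt (p : ℝ) (x : Finset E) : ℝ :=
  p ^ x.card * (1 - p) ^ (Fintype.card E - x.card)

/-- The measure of a family of subsets of `E`. -/
noncomputable def muF (p : ℝ) (A : Finset (Finset E)) : ℝ := ∑ x ∈ A, wt p x

/-- The threshold `inf {p ∈ [0,1] : muF p A ≥ a}`. -/
noncomputable def thr (a : ℝ) (A : Finset (Finset E)) : ℝ :=
  sInf {p : ℝ | 0 ≤ p ∧ p ≤ 1 ∧ a ≤ muF p A}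

end core

end Vale.Agent.H17.FK
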