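import Mathlib
import Vale.Agent.H17.FK.Defs

/-! Row K1 (factorisation).  `Finset.prod_add` with `s = univ` (`Finset.powerset_univ`):
`∏ e, (p * g e + (1 - p)) = ∑ x, (∏ e ∈ x, p * g e) * ∏ e ∈ univ \ x, (1 - p)`;
`∏ e ∈ x, p * g e = p ^ x.card * ∏ e ∈ x, g e` (`Finset.prod_mul_distrib`, `Finset.prod_const`),
`∏ e ∈ univ \ x, (1 - p) = (1 - p) ^ (Fintype.card E - x.card)`
(`Finset.card_sdiff`, `Finset.card_univ`).  `sum_wt`: take `g = 1`. -/

namespace Vale.Agent.H17.FK

open Finset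

variable {E : Type} [Fintype E] [DecidableEq E]

/-- K1 -/
theorem sum_wt_prod (p : ℝ) (g : E → ℝ) :
    ∑ x : Finset E, wt p x * ∏ e ∈ x, g e = ∏ e : E, (1 - p + p * g e) := by
  have h : ∏ e : E, (1 - p + p * g e) = ∏ e : E, (p * g e + (1 - p)) :=
    Finset.prod_congr rfl (fun e _ => by ring)
  rw [h, Finset.prod_add, Finset.powerset_univ]
  refine Finset.sum_congr rfl (fun x _ => ?_)
  have hc : (Finset.univ \ x).card = Fintype.card E - x.card := by
    rw [← Finset.compl_eq_univ_sdiff, Finset.card_compl]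
  rw [Finset.prod_mul_distrib, Finset.prod_const, Finset.prod_const, hc]
  unfold wt
  ring

/-- K1 -/
theorem sum_wt (p : ℝ) : ∑ x : Finset E, wt p x = 1 := by
  have h := sum_wt_prod p (fun _ : E => (1 : ℝ))
  simpa using h

end Vale.Agent.H17.FK
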