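import Mathlib
import Vale.Agent.H17.FK.Defs
import Vale.Agent.H17.FK.Prod

/-! Row K3 (basic facts on `muF`).  Weights are nonnegative for `0 ≤ p ≤ 1`; `muF` is monotone
in the family; `muF p univ = 1` is `sum_wt` (Prod.lean, black box);
`muF p A + muF p Aᶜ = 1` (`Finset.sum_add_sum_compl`).  `muF_one`: `wt 1 x = 0 ^ (N - |x|)`,
which is `1` for `x = univ` and `0` otherwise (`Finset.card_lt_univ_of_notMem` or
`Finset.eq_univ_of_card`), so `muF 1 A = 1` when `univ ∈ A` (`Finset.sum_eq_single`). -/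

namespace Vale.Agent.H17.FK

open Finset

variable {E : Type} [Fintype E] [DecidableEq E]

/-- K3 -/
theorem wt_nonneg (p : ℝ) (hp0 : 0 ≤ p) (hp1 : p ≤ 1) (x : Finset E) : 0 ≤ wt p x := by
  unfold wt
  exact mul_nonneg (pow_nonneg hp0 _) (pow_nonneg (by linarith) _)

/-- K3 -/
theorem muF_nonneg (p : ℝ) (hp0 : 0 ≤ p) (hp1 : p ≤ 1) (A : Finset (Finset E)) :
    0 ≤ muF p A := by
  unfold muF
  exact Finset.sum_nonneg (fun x _ => wt_nonneg p hp0 hp1 x)

/-- K3 -/
theorem muF_mono (p : ℝ) (hp0 : 0 ≤ p) (hp1 : p ≤ 1) (A B : Finset (Finset E)) (h : A ⊆ B) :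
    muF p A ≤ muF p B := by
  unfold muF
  exact Finset.sum_le_sum_of_subset_of_nonneg h (fun x _ _ => wt_nonneg p hp0 hp1 x)

/-- K3 -/
theorem muF_univ (p : ℝ) : muF p (Finset.univ : Finset (Finset E)) = 1 := by
  unfold muF
  exact sum_wt p

/-- K3 -/
theorem muF_compl (p : ℝ) (A : Finset (Finset E)) : muF p A + muF p Aᶜ = 1 := by
  unfold muF
  rw [Finset.sum_add_sum_compl]
  exact sum_wt p

/-- K3 -/
theorem muF_one (A : Finset (Finset E)) (h : (Finset.univ : Finset E) ∈ A) : muF 1 A = 1 := by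
  unfold muF
  rw [Finset.sum_eq_single (Finset.univ : Finset E)]
  · unfold wt
    simp [Finset.card_univ]
  · intro x _ hx
    unfold wt
    have hlt : x.card < Fintype.card E := (Finset.card_lt_iff_ne_univ x).mpr hx
    have h0 : Fintype.card E - x.card ≠ 0 := by omega
    rw [sub_self, zero_pow h0, mul_zero]
  · intro h'
    exact absurd h h'

end Vale.Agent.H17.FK
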