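import Mathlib
import Vale.Agent.H17.FK.Defs
import Vale.Agent.H17.FK.Basic

/-! Row K7 (the infimum).  `p ↦ muF p A` is a finite sum of products of powers of `p` and
`1 - p`: continuous (`continuity` / `fun_prop` after unfolding `muF`, `wt`).  The set
`S = {p | 0 ≤ p ∧ p ≤ 1 ∧ a ≤ muF p A}` is closed (intersection of closed sets,
`isClosed_le`), bounded below by `0`, and contains `1` when `a ≤ muF 1 A`; so
`sInf S ∈ S` (`IsClosed.csInf_mem`).  `thr_le`: `csInf_le` (bounded below by `0`). -/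

namespace Vale.Agent.H17.FK

open Finset

variable {E : Type} [Fintype E] [DecidableEq E]

/-- `p ↦ muF p A` is continuous. -/
theorem k7_cont (A : Finset (Finset E)) : Continuous (fun p : ℝ => muF p A) := by
  unfold muF wt
  fun_prop

/-- The set defining `thr` is closed. -/
theorem k7_closed (a : ℝ) (A : Finset (Finset E)) :
    IsClosed {p : ℝ | 0 ≤ p ∧ p ≤ 1 ∧ a ≤ muF p A} := by
  have h1 : IsClosed {p : ℝ | 0 ≤ p} := isClosed_le continuous_const continuous_id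
  have h2 : IsClosed {p : ℝ | p ≤ 1} := isClosed_le continuous_id continuous_const
  have h3 : IsClosed {p : ℝ | a ≤ muF p A} := isClosed_le continuous_const (k7_cont A)
  exact h1.inter (h2.inter h3)

/-- K7 -/
theorem thr_spec (a : ℝ) (A : Finset (Finset E)) (h1 : a ≤ muF 1 A) :
    0 ≤ thr a A ∧ thr a A ≤ 1 ∧ a ≤ muF (thr a A) A := by
  have hne : ({p : ℝ | 0 ≤ p ∧ p ≤ 1 ∧ a ≤ muF p A}).Nonempty := ⟨1, zero_le_one, le_rfl, h1⟩
  have hbdd : BddBelow {p : ℝ | 0 ≤ p ∧ p ≤ 1 ∧ a ≤ muF p A} := ⟨0, fun p hp => hp.1⟩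
  have hmem := (k7_closed a A).csInf_mem hne hbdd
  exact hmem

/-- K7 -/
theorem thr_le (a : ℝ) (A : Finset (Finset E)) (p : ℝ) (hp0 : 0 ≤ p) (hp1 : p ≤ 1)
    (h : a ≤ muF p A) : thr a A ≤ p := by
  have hbdd : BddBelow {p : ℝ | 0 ≤ p ∧ p ≤ 1 ∧ a ≤ muF p A} := ⟨0, fun q hq => hq.1⟩
  exact csInf_le hbdd ⟨hp0, hp1, h⟩

end Vale.Agent.H17.FK
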