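import Mathlib

/-! Row K2 (exponential inequalities).  `Real.abs_exp_sub_one_sub_id_le : |x| ≤ 1 →
|Real.exp x - 1 - x| ≤ x ^ 2` gives `exp t ≤ 1 + t + t ^ 2` and `exp (-t) ≤ 1 - t + t ^ 2` for
`0 ≤ t ≤ 1`.  Then `1 - p + p * exp t ≤ 1 + p * t + p * t ^ 2 ≤ 1 + (p * t + t ^ 2) ≤
exp (p * t + t ^ 2)` (`Real.add_one_le_exp`), and likewise with `-t`. -/

namespace Vale.Agent.H17.FK

/-- K2 -/
theorem exp_le_quad (t : ℝ) (ht0 : 0 ≤ t) (ht1 : t ≤ 1) : Real.exp t ≤ 1 + t + t ^ 2 := by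
  have h := Real.abs_exp_sub_one_sub_id_le (x := t) (by rw [abs_of_nonneg ht0]; exact ht1)
  have h2 := (abs_le.mp h).2
  linarith

/-- K2 -/
theorem exp_neg_le_quad (t : ℝ) (ht0 : 0 ≤ t) (ht1 : t ≤ 1) :
    Real.exp (-t) ≤ 1 - t + t ^ 2 := by
  have h := Real.abs_exp_sub_one_sub_id_le (x := -t) (by rw [abs_neg, abs_of_nonneg ht0]; exact ht1)
  have h2 := (abs_le.mp h).2
  have h3 : (-t) ^ 2 = t ^ 2 := by ring
  linarith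

/-- K2 -/
theorem mgf_up (p t : ℝ) (hp0 : 0 ≤ p) (hp1 : p ≤ 1) (ht0 : 0 ≤ t) (ht1 : t ≤ 1) :
    1 - p + p * Real.exp t ≤ Real.exp (p * t + t ^ 2) := by
  have h1 := exp_le_quad t ht0 ht1
  have h2 : p * Real.exp t ≤ p * (1 + t + t ^ 2) := mul_le_mul_of_nonneg_left h1 hp0
  have h3 : p * t ^ 2 ≤ 1 * t ^ 2 := mul_le_mul_of_nonneg_right hp1 (sq_nonneg t)
  have h4 := Real.add_one_le_exp (p * t + t ^ 2)
  nlinarith

/-- K2 -/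
theorem mgf_down (p t : ℝ) (hp0 : 0 ≤ p) (hp1 : p ≤ 1) (ht0 : 0 ≤ t) (ht1 : t ≤ 1) :
    1 - p + p * Real.exp (-t) ≤ Real.exp (-(p * t) + t ^ 2) := by
  have h1 := exp_neg_le_quad t ht0 ht1
  have h2 : p * Real.exp (-t) ≤ p * (1 - t + t ^ 2) := mul_le_mul_of_nonneg_left h1 hp0
  have h3 : p * t ^ 2 ≤ 1 * t ^ 2 := mul_le_mul_of_nonneg_right hp1 (sq_nonneg t)
  have h4 := Real.add_one_le_exp (-(p * t) + t ^ 2)
  nlinarith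

end Vale.Agent.H17.FK
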