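import Mathlib
import Vale.Agent.H17.FK.Defs
import Vale.Agent.H17.FK.Prod

/-! Row K4 (Markov with the exponential moment).  Let `g e = if e ∈ D then exp t else 1`
(resp. `exp (-t)`).  Then `∏ e ∈ x, g e = exp t ^ (x ∩ D).card = exp (t * (x ∩ D).card)`
(`Finset.prod_ite`, `Finset.filter_mem_eq_inter`, `Real.exp_nat_mul`), and by `sum_wt_prod`
(Prod.lean, black box) `∑ x, wt p x * ∏ e ∈ x, g e = ∏ e, (1 - p + p * g e) =
(1 - p + p * exp t) ^ D.card` (`Finset.prod_ite`, the other factors are `1 - p + p * 1 = 1`).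
Weights are nonnegative (`0 ≤ p ≤ 1`).  On the family `{x : a ≤ |x ∩ D|}`:
`1 ≤ exp (t * (|x ∩ D| - a))` as `t ≥ 0`, so
`muF p {..} ≤ ∑ x, wt p x * exp (t * |x ∩ D|) * exp (-(t * a))`.  Lower tail: on
`{x : |x ∩ D| ≤ a}`: `1 ≤ exp (t * (a - |x ∩ D|))`. -/

namespace Vale.Agent.H17.FK

open Finset

variable {E : Type} [Fintype E] [DecidableEq E]

omit [DecidableEq E] in
theorem k4_wt_nonneg (p : ℝ) (hp0 : 0 ≤ p) (hp1 : p ≤ 1) (x : Finset E) : 0 ≤ wt p x :=
  mul_nonneg (pow_nonneg hp0 _) (pow_nonneg (sub_nonneg.2 hp1) _)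

theorem k4_key (p s : ℝ) (D : Finset E) :
    ∑ x : Finset E, wt p x * Real.exp (s * ((x ∩ D).card : ℝ))
      = (1 - p + p * Real.exp s) ^ D.card := by
  have hprod : ∀ x : Finset E,
      ∏ e ∈ x, (if e ∈ D then Real.exp s else 1) = Real.exp (s * ((x ∩ D).card : ℝ)) := by
    intro x
    rw [Finset.prod_ite_mem, Finset.prod_const, mul_comm, Real.exp_nat_mul]
  have hfac : ∀ e : E, (1 - p + p * (if e ∈ D then Real.exp s else 1))
      = if e ∈ D then (1 - p + p * Real.exp s) else 1 := by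
    intro e
    split_ifs <;> ring
  calc ∑ x : Finset E, wt p x * Real.exp (s * ((x ∩ D).card : ℝ))
      = ∑ x : Finset E, wt p x * ∏ e ∈ x, (if e ∈ D then Real.exp s else 1) := by
        apply Finset.sum_congr rfl
        intro x _
        rw [hprod x]
    _ = ∏ e : E, (1 - p + p * (if e ∈ D then Real.exp s else 1)) := sum_wt_prod p _
    _ = ∏ e : E, (if e ∈ D then (1 - p + p * Real.exp s) else 1) := by
        apply Finset.prod_congr rfl
        intro e _
        exact hfac e
    _ = (1 - p + p * Real.exp s) ^ D.card := by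
        rw [Finset.prod_ite_mem, Finset.univ_inter, Finset.prod_const]

/-- K4 -/
theorem upper_tail (p t a : ℝ) (hp0 : 0 ≤ p) (hp1 : p ≤ 1) (ht : 0 ≤ t) (D : Finset E) :
    muF p (Finset.univ.filter fun x : Finset E => a ≤ ((x ∩ D).card : ℝ)) ≤
      Real.exp (-(t * a)) * (1 - p + p * Real.exp t) ^ D.card := by
  unfold muF
  calc ∑ x ∈ Finset.univ.filter (fun x : Finset E => a ≤ ((x ∩ D).card : ℝ)), wt p x
      ≤ ∑ x ∈ Finset.univ.filter (fun x : Finset E => a ≤ ((x ∩ D).card : ℝ)),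
          wt p x * Real.exp (t * ((x ∩ D).card : ℝ)) * Real.exp (-(t * a)) := by
        apply Finset.sum_le_sum
        intro x hx
        have hx' : a ≤ ((x ∩ D).card : ℝ) := (Finset.mem_filter.1 hx).2
        have h1 : 1 ≤ Real.exp (t * ((x ∩ D).card : ℝ)) * Real.exp (-(t * a)) := by
          rw [← Real.exp_add]
          apply Real.one_le_exp
          nlinarith [mul_nonneg ht (sub_nonneg.2 hx')]
        calc wt p x = wt p x * 1 := (mul_one _).symm
          _ ≤ wt p x * (Real.exp (t * ((x ∩ D).card : ℝ)) * Real.exp (-(t * a))) :=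
              mul_le_mul_of_nonneg_left h1 (k4_wt_nonneg p hp0 hp1 x)
          _ = wt p x * Real.exp (t * ((x ∩ D).card : ℝ)) * Real.exp (-(t * a)) := by ring
    _ ≤ ∑ x : Finset E, wt p x * Real.exp (t * ((x ∩ D).card : ℝ)) * Real.exp (-(t * a)) := by
        apply Finset.sum_le_sum_of_subset_of_nonneg (Finset.filter_subset _ _)
        intro x _ _
        exact mul_nonneg (mul_nonneg (k4_wt_nonneg p hp0 hp1 x) (Real.exp_pos _).le)
          (Real.exp_pos _).le
    _ = Real.exp (-(t * a)) * (1 - p + p * Real.exp t) ^ D.card := by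
        rw [← Finset.sum_mul, k4_key, mul_comm]

/-- K4 -/
theorem lower_tail (p t a : ℝ) (hp0 : 0 ≤ p) (hp1 : p ≤ 1) (ht : 0 ≤ t) (D : Finset E) :
    muF p (Finset.univ.filter fun x : Finset E => ((x ∩ D).card : ℝ) ≤ a) ≤
      Real.exp (t * a) * (1 - p + p * Real.exp (-t)) ^ D.card := by
  unfold muF
  calc ∑ x ∈ Finset.univ.filter (fun x : Finset E => ((x ∩ D).card : ℝ) ≤ a), wt p x
      ≤ ∑ x ∈ Finset.univ.filter (fun x : Finset E => ((x ∩ D).card : ℝ) ≤ a),
          wt p x * Real.exp (-t * ((x ∩ D).card : ℝ)) * Real.exp (t * a) := by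
        apply Finset.sum_le_sum
        intro x hx
        have hx' : ((x ∩ D).card : ℝ) ≤ a := (Finset.mem_filter.1 hx).2
        have h1 : 1 ≤ Real.exp (-t * ((x ∩ D).card : ℝ)) * Real.exp (t * a) := by
          rw [← Real.exp_add]
          apply Real.one_le_exp
          nlinarith [mul_nonneg ht (sub_nonneg.2 hx')]
        calc wt p x = wt p x * 1 := (mul_one _).symm
          _ ≤ wt p x * (Real.exp (-t * ((x ∩ D).card : ℝ)) * Real.exp (t * a)) :=
              mul_le_mul_of_nonneg_left h1 (k4_wt_nonneg p hp0 hp1 x)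
          _ = wt p x * Real.exp (-t * ((x ∩ D).card : ℝ)) * Real.exp (t * a) := by ring
    _ ≤ ∑ x : Finset E, wt p x * Real.exp (-t * ((x ∩ D).card : ℝ)) * Real.exp (t * a) := by
        apply Finset.sum_le_sum_of_subset_of_nonneg (Finset.filter_subset _ _)
        intro x _ _
        exact mul_nonneg (mul_nonneg (k4_wt_nonneg p hp0 hp1 x) (Real.exp_pos _).le)
          (Real.exp_pos _).le
    _ = Real.exp (t * a) * (1 - p + p * Real.exp (-t)) ^ D.card := by
        rw [← Finset.sum_mul, k4_key, mul_comm]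

end Vale.Agent.H17.FK
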