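import Mathlib
import Vale.Agent.H17.FK.Defs
import Vale.Agent.H17.FK.ExpIneq
import Vale.Agent.H17.FK.Tail

/-! Row K5 (tails at distance `lam`).  `m = D.card > 0`, `t = lam / (2 m) ∈ [0, 1]`.
Upper: `upper_tail` with `a = p m + lam`, then `mgf_up`:
`exp (-(t (p m + lam))) * (1 - p + p exp t) ^ m ≤ exp (-(t (p m + lam))) * exp (p t + t ^ 2) ^ m
= exp (-(t lam) + m t ^ 2) = exp (-(lam ^ 2 / (4 m)))` (`Real.exp_nat_mul`, `Real.exp_add`).
Lower: `lower_tail` with `a = p m - lam` and `mgf_down`, same exponent.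
(Tail.lean and ExpIneq.lean are black boxes.) -/

namespace Vale.Agent.H17.FK

open Finset

variable {E : Type} [Fintype E] [DecidableEq E]

/-- K5 -/
theorem upper_tail_lam (p lam : ℝ) (hp0 : 0 ≤ p) (hp1 : p ≤ 1) (D : Finset E)
    (hm : 0 < D.card) (hl0 : 0 ≤ lam) (hl : lam ≤ 2 * (D.card : ℝ)) :
    muF p (Finset.univ.filter fun x : Finset E => p * (D.card : ℝ) + lam ≤ ((x ∩ D).card : ℝ))
      ≤ Real.exp (-(lam ^ 2 / (4 * (D.card : ℝ)))) := by
  have hmR : (0 : ℝ) < (D.card : ℝ) := by exact_mod_cast hm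
  obtain ⟨t, htdef⟩ : ∃ t : ℝ, t = lam / (2 * (D.card : ℝ)) := ⟨_, rfl⟩
  have ht0 : 0 ≤ t := by
    rw [htdef]
    positivity
  have ht1 : t ≤ 1 := by
    rw [htdef, div_le_one (by positivity)]
    exact hl
  have h1 := upper_tail p t (p * (D.card : ℝ) + lam) hp0 hp1 ht0 D
  have h2 := mgf_up p t hp0 hp1 ht0 ht1
  have hbase : 0 ≤ 1 - p + p * Real.exp t := by
    have he := Real.exp_pos t
    nlinarith [mul_nonneg hp0 he.le]
  have h3 : (1 - p + p * Real.exp t) ^ D.card ≤ Real.exp (p * t + t ^ 2) ^ D.card :=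
    pow_le_pow_left₀ hbase h2 _
  have h4 : Real.exp (-(t * (p * (D.card : ℝ) + lam))) * Real.exp (p * t + t ^ 2) ^ D.card
      = Real.exp (-(lam ^ 2 / (4 * (D.card : ℝ)))) := by
    rw [← Real.exp_nat_mul, ← Real.exp_add]
    congr 1
    rw [htdef]
    field_simp
    ring
  calc muF p (Finset.univ.filter fun x : Finset E =>
        p * (D.card : ℝ) + lam ≤ ((x ∩ D).card : ℝ))
      ≤ Real.exp (-(t * (p * (D.card : ℝ) + lam))) * (1 - p + p * Real.exp t) ^ D.card := h1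
    _ ≤ Real.exp (-(t * (p * (D.card : ℝ) + lam))) * Real.exp (p * t + t ^ 2) ^ D.card :=
        mul_le_mul_of_nonneg_left h3 (Real.exp_pos _).le
    _ = Real.exp (-(lam ^ 2 / (4 * (D.card : ℝ)))) := h4

/-- K5 -/
theorem lower_tail_lam (p lam : ℝ) (hp0 : 0 ≤ p) (hp1 : p ≤ 1) (D : Finset E)
    (hm : 0 < D.card) (hl0 : 0 ≤ lam) (hl : lam ≤ 2 * (D.card : ℝ)) :
    muF p (Finset.univ.filter fun x : Finset E => ((x ∩ D).card : ℝ) ≤ p * (D.card : ℝ) - lam)
      ≤ Real.exp (-(lam ^ 2 / (4 * (D.card : ℝ)))) := by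
  have hmR : (0 : ℝ) < (D.card : ℝ) := by exact_mod_cast hm
  obtain ⟨t, htdef⟩ : ∃ t : ℝ, t = lam / (2 * (D.card : ℝ)) := ⟨_, rfl⟩
  have ht0 : 0 ≤ t := by
    rw [htdef]
    positivity
  have ht1 : t ≤ 1 := by
    rw [htdef, div_le_one (by positivity)]
    exact hl
  have h1 := lower_tail p t (p * (D.card : ℝ) - lam) hp0 hp1 ht0 D
  have h2 := mgf_down p t hp0 hp1 ht0 ht1
  have hbase : 0 ≤ 1 - p + p * Real.exp (-t) := by
    have he := Real.exp_pos (-t)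
    nlinarith [mul_nonneg hp0 he.le]
  have h3 : (1 - p + p * Real.exp (-t)) ^ D.card ≤ Real.exp (-(p * t) + t ^ 2) ^ D.card :=
    pow_le_pow_left₀ hbase h2 _
  have h4 : Real.exp (t * (p * (D.card : ℝ) - lam)) * Real.exp (-(p * t) + t ^ 2) ^ D.card
      = Real.exp (-(lam ^ 2 / (4 * (D.card : ℝ)))) := by
    rw [← Real.exp_nat_mul, ← Real.exp_add]
    congr 1
    rw [htdef]
    field_simp
    ring
  calc muF p (Finset.univ.filter fun x : Finset E =>
        ((x ∩ D).card : ℝ) ≤ p * (D.card : ℝ) - lam)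
      ≤ Real.exp (t * (p * (D.card : ℝ) - lam)) * (1 - p + p * Real.exp (-t)) ^ D.card := h1
    _ ≤ Real.exp (t * (p * (D.card : ℝ) - lam)) * Real.exp (-(p * t) + t ^ 2) ^ D.card :=
        mul_le_mul_of_nonneg_left h3 (Real.exp_pos _).le
    _ = Real.exp (-(lam ^ 2 / (4 * (D.card : ℝ)))) := h4

end Vale.Agent.H17.FK
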