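import Mathlib
import Vale.Agent.H17.FK.Defs
import Vale.Agent.H17.FK.Basic
import Vale.Agent.H17.FK.TailLam

/-! Row K6 (union bound over the vertices).  The family `{x : ∃ v, Q v x}` is contained in
the union over `v` of the families `{x : Q v x}`; weights are nonnegative (`wt_nonneg`), so
`muF p {x : ∃ v, Q v x} ≤ ∑ v, muF p {x : Q v x}` (`Finset.sum_le_sum_of_subset_of_nonneg`
into `Finset.biUnion`, then `Finset.sum_biUnion_le` style, or directly: for each `x` in the
left family pick a witness).  Each term is `≤ exp (-(lam ^ 2 / (4 m)))` by `upper_tail_lam` /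
`lower_tail_lam` with `D = D v` (`(D v).card = m`).  (Basic.lean and TailLam.lean are black
boxes.) -/

namespace Vale.Agent.H17.FK

open Finset

variable {E : Type} [Fintype E] [DecidableEq E]

theorem k6_union_aux {V : Type} [Fintype V] (p : ℝ) (hp0 : 0 ≤ p) (hp1 : p ≤ 1)
    (A : Finset (Finset E)) (B : V → Finset (Finset E)) (c : ℝ)
    (hAB : ∀ x ∈ A, ∃ v, x ∈ B v) (hB : ∀ v, muF p (B v) ≤ c) :
    muF p A ≤ (Fintype.card V : ℝ) * c := by
  classical
  have hnn : ∀ (x : Finset E) (v : V), 0 ≤ (if x ∈ B v then wt p x else 0) := by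
    intro x v
    split_ifs
    · exact wt_nonneg p hp0 hp1 x
    · exact le_refl 0
  have h1 : muF p A ≤ ∑ x ∈ A, ∑ v : V, (if x ∈ B v then wt p x else 0) := by
    unfold muF
    apply Finset.sum_le_sum
    intro x hx
    obtain ⟨v, hv⟩ := hAB x hx
    calc wt p x = (if x ∈ B v then wt p x else 0) := by rw [if_pos hv]
      _ ≤ ∑ v : V, (if x ∈ B v then wt p x else 0) :=
          Finset.single_le_sum (f := fun v => if x ∈ B v then wt p x else 0)
            (fun v _ => hnn x v) (Finset.mem_univ v)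
  have h2 : ∑ x ∈ A, ∑ v : V, (if x ∈ B v then wt p x else 0) ≤
      ∑ x : Finset E, ∑ v : V, (if x ∈ B v then wt p x else 0) :=
    Finset.sum_le_sum_of_subset_of_nonneg (Finset.subset_univ A)
      (fun x _ _ => Finset.sum_nonneg (fun v _ => hnn x v))
  have h3 : ∑ x : Finset E, ∑ v : V, (if x ∈ B v then wt p x else 0) =
      ∑ v : V, muF p (B v) := by
    rw [Finset.sum_comm]
    apply Finset.sum_congr rfl
    intro v _
    unfold muF
    rw [← Finset.sum_filter]
    congr 1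
    ext x
    simp
  calc muF p A ≤ ∑ v : V, muF p (B v) := by
        rw [← h3]
        exact le_trans h1 h2
    _ ≤ ∑ _v : V, c := Finset.sum_le_sum (fun v _ => hB v)
    _ = (Fintype.card V : ℝ) * c := by
        rw [Finset.sum_const, Finset.card_univ, nsmul_eq_mul]

/-- K6 -/
theorem union_upper {V : Type} [Fintype V] (D : V → Finset E) (m : ℕ)
    (hD : ∀ v, (D v).card = m) (hm : 0 < m) (p lam : ℝ) (hp0 : 0 ≤ p) (hp1 : p ≤ 1)
    (hl0 : 0 ≤ lam) (hl : lam ≤ 2 * (m : ℝ)) :
    muF p (Finset.univ.filter fun x : Finset E =>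
        ∃ v, p * (m : ℝ) + lam ≤ ((x ∩ D v).card : ℝ)) ≤
      (Fintype.card V : ℝ) * Real.exp (-(lam ^ 2 / (4 * (m : ℝ)))) := by
  refine k6_union_aux p hp0 hp1 _ (fun v => Finset.univ.filter fun x : Finset E =>
    p * ((D v).card : ℝ) + lam ≤ ((x ∩ D v).card : ℝ)) _ ?_ ?_
  · intro x hx
    rw [Finset.mem_filter] at hx
    obtain ⟨v, hv⟩ := hx.2
    refine ⟨v, ?_⟩
    rw [Finset.mem_filter, hD v]
    exact ⟨Finset.mem_univ x, hv⟩
  · intro v
    have h := upper_tail_lam p lam hp0 hp1 (D v) (by rw [hD v]; exact hm) hl0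
      (by rw [hD v]; exact hl)
    refine le_trans h (le_of_eq ?_)
    rw [hD v]

/-- K6 -/
theorem union_lower {V : Type} [Fintype V] (D : V → Finset E) (m : ℕ)
    (hD : ∀ v, (D v).card = m) (hm : 0 < m) (p lam : ℝ) (hp0 : 0 ≤ p) (hp1 : p ≤ 1)
    (hl0 : 0 ≤ lam) (hl : lam ≤ 2 * (m : ℝ)) :
    muF p (Finset.univ.filter fun x : Finset E =>
        ∃ v, ((x ∩ D v).card : ℝ) ≤ p * (m : ℝ) - lam) ≤
      (Fintype.card V : ℝ) * Real.exp (-(lam ^ 2 / (4 * (m : ℝ)))) := by
  refine k6_union_aux p hp0 hp1 _ (fun v => Finset.univ.filter fun x : Finset E =>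
    ((x ∩ D v).card : ℝ) ≤ p * ((D v).card : ℝ) - lam) _ ?_ ?_
  · intro x hx
    rw [Finset.mem_filter] at hx
    obtain ⟨v, hv⟩ := hx.2
    refine ⟨v, ?_⟩
    rw [Finset.mem_filter, hD v]
    exact ⟨Finset.mem_univ x, hv⟩
  · intro v
    have h := lower_tail_lam p lam hp0 hp1 (D v) (by rw [hD v]; exact hm) hl0
      (by rw [hD v]; exact hl)
    refine le_trans h (le_of_eq ?_)
    rw [hD v]

end Vale.Agent.H17.FK
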