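import Mathlib
import Vale.Agent.H17.FK.Defs
import Vale.Agent.H17.FK.Basic
import Vale.Agent.H17.FK.Union
import Vale.Agent.H17.FK.Thr

/-! Row K8 (the main argument).  Black boxes: Basic.lean, Union.lean, Thr.lean.
`univ ∈ P` (apply `hmono` to an element of `P` and `y = univ`; `Finset.card_le_card`), so
`muF 1 P = 1` (`muF_one`) and `thr_spec` applies to `a = ε` and to `a = 1 - ε`:
`q := thr ε P ∈ [0, 1]`, `ε ≤ muF q P`, `thr (1 - ε) P ≤ 1`.
If `1 < q + 2 lam / m`: `thr (1 - ε) P - q ≤ 1 - q ≤ 2 lam / m`.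
Otherwise `p' := q + 2 lam / m ∈ [0, 1]`.
At `q`: the family `B = {x : ∃ v, q m + lam ≤ |x ∩ D v|}` has `muF q B ≤ ε / 2 < ε ≤ muF q P`
(`union_upper`, `hlam`), so `P` is not contained in `B` (`muF_mono`): there is `x0 ∈ P` with
`|x0 ∩ D v| < q m + lam` for all `v`.
At `p'`: `B' = {y : ∃ v, |y ∩ D v| ≤ p' m - lam}` has `muF p' B' ≤ ε / 2` (`union_lower`), and
`B'ᶜ ⊆ P`: for `y ∉ B'` and every `v`: `|y ∩ D v| > p' m - lam = q m + lam > |x0 ∩ D v|`, so
`hmono x0 y`.  Hence `muF p' P ≥ muF p' B'ᶜ = 1 - muF p' B' ≥ 1 - ε / 2 ≥ 1 - ε`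
(`muF_compl`, `muF_mono`), and `thr_le` gives `thr (1 - ε) P ≤ p'`. -/

namespace Vale.Agent.H17.FK

open Finset

variable {E : Type} [Fintype E] [DecidableEq E]

/-- K8 -/
theorem core_width {V : Type} [Fintype V] (D : V → Finset E) (m : ℕ)
    (hD : ∀ v, (D v).card = m) (hm : 0 < m) (P : Finset (Finset E)) (hP : P.Nonempty)
    (hmono : ∀ x ∈ P, ∀ y : Finset E, (∀ v, (x ∩ D v).card ≤ (y ∩ D v).card) → y ∈ P)
    (ε lam : ℝ) (hε : 0 < ε) (hε1 : ε < 1) (hl0 : 0 ≤ lam) (hl : lam ≤ 2 * (m : ℝ))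
    (hlam : (Fintype.card V : ℝ) * Real.exp (-(lam ^ 2 / (4 * (m : ℝ)))) ≤ ε / 2) :
    thr (1 - ε) P - thr ε P ≤ 2 * lam / (m : ℝ) := by
  obtain ⟨x1, hx1⟩ := hP
  have huniv : (Finset.univ : Finset E) ∈ P :=
    hmono x1 hx1 Finset.univ (fun v => Finset.card_le_card
      (Finset.inter_subset_inter (Finset.subset_univ x1) (Finset.Subset.refl _)))
  have h1 : muF 1 P = 1 := muF_one P huniv
  obtain ⟨hq0, hq1, hqε⟩ := thr_spec ε P (by rw [h1]; linarith)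
  obtain ⟨-, ht1, -⟩ := thr_spec (1 - ε) P (by rw [h1]; linarith)
  have hmR : (0 : ℝ) < (m : ℝ) := by exact_mod_cast hm
  have h2l : 0 ≤ 2 * lam / (m : ℝ) := by positivity
  by_cases hcase : 1 < thr ε P + 2 * lam / (m : ℝ)
  · linarith
  · have hp'1 : thr ε P + 2 * lam / (m : ℝ) ≤ 1 := not_lt.mp hcase
    have hp'0 : 0 ≤ thr ε P + 2 * lam / (m : ℝ) := by linarith
    have hpm : (thr ε P + 2 * lam / (m : ℝ)) * (m : ℝ) - lam = thr ε P * (m : ℝ) + lam := by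
      field_simp
      ring
    have hBu := union_upper D m hD hm (thr ε P) lam hq0 hq1 hl0 hl
    have hB'u := union_lower D m hD hm (thr ε P + 2 * lam / (m : ℝ)) lam hp'0 hp'1 hl0 hl
    have hnot : ¬ P ⊆ (Finset.univ.filter fun x : Finset E =>
        ∃ v, thr ε P * (m : ℝ) + lam ≤ ((x ∩ D v).card : ℝ)) := by
      intro hsub
      have h3 := muF_mono (thr ε P) hq0 hq1 P _ hsub
      linarith
    obtain ⟨x0, hx0P, hx0B⟩ := Finset.not_subset.mp hnot
    have hx0 : ∀ v, ((x0 ∩ D v).card : ℝ) < thr ε P * (m : ℝ) + lam := by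
      intro v
      by_contra hcon
      apply hx0B
      rw [Finset.mem_filter]
      exact ⟨Finset.mem_univ _, v, not_lt.mp hcon⟩
    have hsub2 : (Finset.univ.filter fun x : Finset E =>
        ∃ v, ((x ∩ D v).card : ℝ) ≤ (thr ε P + 2 * lam / (m : ℝ)) * (m : ℝ) - lam)ᶜ ⊆ P := by
      intro y hy
      rw [Finset.mem_compl, Finset.mem_filter] at hy
      apply hmono x0 hx0P y
      intro v
      have hy2 : (thr ε P + 2 * lam / (m : ℝ)) * (m : ℝ) - lam < ((y ∩ D v).card : ℝ) := by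
        by_contra hcon
        exact hy ⟨Finset.mem_univ _, v, not_lt.mp hcon⟩
      rw [hpm] at hy2
      have h8 := hx0 v
      have h3 : ((x0 ∩ D v).card : ℝ) < ((y ∩ D v).card : ℝ) := by linarith
      exact_mod_cast h3.le
    have h4 := muF_mono (thr ε P + 2 * lam / (m : ℝ)) hp'0 hp'1 _ P hsub2
    have h5 := muF_compl (thr ε P + 2 * lam / (m : ℝ)) (Finset.univ.filter fun x : Finset E =>
        ∃ v, ((x ∩ D v).card : ℝ) ≤ (thr ε P + 2 * lam / (m : ℝ)) * (m : ℝ) - lam)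
    have h6 : 1 - ε ≤ muF (thr ε P + 2 * lam / (m : ℝ)) P := by linarith
    have h7 := thr_le (1 - ε) P _ hp'0 hp'1 h6
    linarith

/-- K8 -/
theorem core_width_le_one (P : Finset (Finset E)) (h : (Finset.univ : Finset E) ∈ P)
    (ε : ℝ) (hε : 0 < ε) (hε1 : ε < 1) : thr (1 - ε) P - thr ε P ≤ 1 := by
  have h1 : muF 1 P = 1 := muF_one P h
  obtain ⟨hq0, -, -⟩ := thr_spec ε P (by rw [h1]; linarith)
  obtain ⟨-, ht1, -⟩ := thr_spec (1 - ε) P (by rw [h1]; linarith)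
  linarith

end Vale.Agent.H17.FK
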