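import Mathlib
import Vale.Agent.H17.FK.Defs

/-!
Threshold widths of hypergraph properties (problem P063): `j`-degrees.
-/

namespace Vale.Agent.H17.FK

/-- The `j`-degree of the `j`-set `S` in the hypergraph `x`: the number of edges of `x`
containing `S` (for `j = 1` the vertex degree, for `j = r - 1` the codegree). -/
def jdeg (n r j : ℕ) (x : Finset (HEdge n r)) (S : HEdge n j) : ℕ :=
  (x.filter fun e => S.1 ⊆ e.1).card

/-- The family `P` is monotone in the `j`-degrees: if `x ∈ P` and every `j`-set has at least
the same `j`-degree in `y` as in `x`, then `y ∈ P`. -/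
def JDegMono (n r j : ℕ) (P : Finset (Finset (HEdge n r))) : Prop :=
  ∀ x ∈ P, ∀ y : Finset (HEdge n r), (∀ S : HEdge n j, jdeg n r j x S ≤ jdeg n r j y S) → y ∈ P

end Vale.Agent.H17.FK
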