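import Mathlib

/-! Row K9 (the choice of `lam`).  `L = log (2 n / ε) > 0` because `2 n / ε > 1`
(`n ≥ 1`, `0 < ε < 1`).  `lam = sqrt (4 m L)`, `lam ^ 2 = 4 m L` (`Real.sq_sqrt`),
`exp (-(lam ^ 2 / (4 m))) = exp (-L) = ε / (2 n)` (`Real.exp_neg`, `Real.exp_log`), so
`n * exp (..) = ε / 2`.  `lam ≤ 2 m` iff `4 m L ≤ (2 m) ^ 2` iff `L ≤ m`
(`Real.sqrt_le_left`, `Real.sqrt_sq`).  `2 lam / m = 4 sqrt (L / m)`:
`sqrt (4 m L) = 2 sqrt (m L)` and `sqrt (m L) / m = sqrt (L / m)`.  If `m < L` then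
`1 < L / m` and `1 ≤ 4 sqrt (L / m)`. -/

namespace Vale.Agent.H17.FK

theorem k9_arg_gt_one (n : ℕ) (ε : ℝ) (hn : 1 ≤ n) (hε : 0 < ε) (hε1 : ε < 1) :
    1 < 2 * (n : ℝ) / ε := by
  have hn' : (1 : ℝ) ≤ (n : ℝ) := by exact_mod_cast hn
  rw [lt_div_iff₀ hε]
  linarith

theorem k9_log_pos (n : ℕ) (ε : ℝ) (hn : 1 ≤ n) (hε : 0 < ε) (hε1 : ε < 1) :
    0 < Real.log (2 * (n : ℝ) / ε) :=
  Real.log_pos (k9_arg_gt_one n ε hn hε hε1)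

/-- K9 -/
theorem lam_mass (n m : ℕ) (ε : ℝ) (hn : 1 ≤ n) (hm : 0 < m) (hε : 0 < ε) (hε1 : ε < 1) :
    (n : ℝ) * Real.exp (-(Real.sqrt (4 * (m : ℝ) * Real.log (2 * (n : ℝ) / ε)) ^ 2 /
      (4 * (m : ℝ)))) ≤ ε / 2 := by
  have hn' : (1 : ℝ) ≤ (n : ℝ) := by exact_mod_cast hn
  have hm' : (0 : ℝ) < (m : ℝ) := by exact_mod_cast hm
  have hLpos := k9_log_pos n ε hn hε hε1
  have hx : 0 < 2 * (n : ℝ) / ε := by positivity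
  have h1 : Real.sqrt (4 * (m : ℝ) * Real.log (2 * (n : ℝ) / ε)) ^ 2 =
      4 * (m : ℝ) * Real.log (2 * (n : ℝ) / ε) := Real.sq_sqrt (by positivity)
  have h2 : 4 * (m : ℝ) * Real.log (2 * (n : ℝ) / ε) / (4 * (m : ℝ)) =
      Real.log (2 * (n : ℝ) / ε) := by
    field_simp
  rw [h1, h2, Real.exp_neg, Real.exp_log hx]
  have h3 : (n : ℝ) * (2 * (n : ℝ) / ε)⁻¹ = ε / 2 := by
    field_simp
  rw [h3]

/-- K9 -/
theorem lam_le (n m : ℕ) (ε : ℝ) (hn : 1 ≤ n) (hm : 0 < m) (hε : 0 < ε) (hε1 : ε < 1)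
    (hL : Real.log (2 * (n : ℝ) / ε) ≤ (m : ℝ)) :
    Real.sqrt (4 * (m : ℝ) * Real.log (2 * (n : ℝ) / ε)) ≤ 2 * (m : ℝ) := by
  have hm' : (0 : ℝ) < (m : ℝ) := by exact_mod_cast hm
  have _hLpos := k9_log_pos n ε hn hε hε1
  rw [Real.sqrt_le_iff]
  refine ⟨by positivity, ?_⟩
  nlinarith

/-- K9 -/
theorem lam_ratio (n m : ℕ) (ε : ℝ) (hn : 1 ≤ n) (hm : 0 < m) (hε : 0 < ε) (hε1 : ε < 1) :
    2 * Real.sqrt (4 * (m : ℝ) * Real.log (2 * (n : ℝ) / ε)) / (m : ℝ) =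
      4 * Real.sqrt (Real.log (2 * (n : ℝ) / ε) / (m : ℝ)) := by
  have hm' : (0 : ℝ) < (m : ℝ) := by exact_mod_cast hm
  have _hLpos := k9_log_pos n ε hn hε hε1
  have h1 : 4 * (m : ℝ) * Real.log (2 * (n : ℝ) / ε) =
      (2 * (m : ℝ)) ^ 2 * (Real.log (2 * (n : ℝ) / ε) / (m : ℝ)) := by
    field_simp
    ring
  rw [h1, Real.sqrt_mul (sq_nonneg _), Real.sqrt_sq (by positivity)]
  field_simp
  ring

/-- K9 -/
theorem lam_trivial (n m : ℕ) (ε : ℝ) (hm : 0 < m)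
    (hL : (m : ℝ) < Real.log (2 * (n : ℝ) / ε)) :
    1 ≤ 4 * Real.sqrt (Real.log (2 * (n : ℝ) / ε) / (m : ℝ)) := by
  have hm' : (0 : ℝ) < (m : ℝ) := by exact_mod_cast hm
  have h1 : 1 ≤ Real.log (2 * (n : ℝ) / ε) / (m : ℝ) := by
    rw [le_div_iff₀ hm']
    linarith
  have h2 : 1 ≤ Real.sqrt (Real.log (2 * (n : ℝ) / ε) / (m : ℝ)) := Real.one_le_sqrt.mpr h1
  linarith

end Vale.Agent.H17.FK
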