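import Mathlib

/-! Row K10 (numbers).  `L = log (2 n / ε) ≤ 2 sqrt (2 n / ε)` (`log y = 2 log (sqrt y) ≤
2 (sqrt y - 1)`, `Real.log_le_sub_one_of_pos`).  `m ≥ n - 1 ≥ n / 2` (`n ≥ 2`), so
`L / m ≤ 4 sqrt (2 n / ε) / n = 4 sqrt (2 / ε) / sqrt n`, and
`sqrt (L / m) ≤ 2 (2 / ε) ^ (1/4) * n ^ (-1/4)` (`(2 / ε) ^ (1/4) = sqrt (sqrt (2 / ε))`,
`Real.sqrt_eq_rpow`, `Real.rpow_mul`).  `log n ≤ 8 n ^ (1/8)` (`log n = 8 log (n ^ (1/8)) ≤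
8 (n ^ (1/8) - 1)`), so `(log n) ^ 2 ≤ 64 n ^ (1/4)` and, as `log n > 0`,
`8 n ^ (-1/4) ≤ 512 / (log n) ^ 2`.  (`Real.sqrt_le_sqrt` needs the monotone chain; it may be
easier to square both sides: the claim is `16 L / m ≤ (512 (2/ε)^(1/4) / (log n)^2) ^ 2`.) -/

namespace Vale.Agent.H17.FK

theorem k10_log_le (y : ℝ) (hy : 0 < y) : Real.log y ≤ 2 * Real.sqrt y := by
  have h1 : 0 < Real.sqrt y := Real.sqrt_pos.2 hy
  have h2 := Real.log_le_sub_one_of_pos h1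
  rw [Real.log_sqrt hy.le] at h2
  linarith

theorem k10_core (n m a b L : ℝ) (hn : 2 ≤ n) (hm : n - 1 ≤ m) (ha0 : 0 < a) (hb0 : 0 < b)
    (hb8 : b ^ 8 = n) (hL : L ≤ 2 * (a ^ 2 * b ^ 4)) (hlog0 : 0 < Real.log n)
    (hlogn : Real.log n ≤ 8 * b) :
    4 * Real.sqrt (L / m) ≤ 512 * a / (Real.log n) ^ 2 := by
  have hm0 : (0 : ℝ) < m := by linarith
  have hbb : b ^ 8 / 2 ≤ m := by
    rw [hb8]
    linarith
  have hLm : L / m ≤ (2 * a / b ^ 2) ^ 2 := by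
    rw [div_le_iff₀ hm0]
    have h1 : (2 * a / b ^ 2) ^ 2 * (b ^ 8 / 2) = 2 * (a ^ 2 * b ^ 4) := by
      field_simp
    have h2 : (2 * a / b ^ 2) ^ 2 * (b ^ 8 / 2) ≤ (2 * a / b ^ 2) ^ 2 * m :=
      mul_le_mul_of_nonneg_left hbb (sq_nonneg _)
    linarith
  have hsqrt : Real.sqrt (L / m) ≤ 2 * a / b ^ 2 := by
    calc Real.sqrt (L / m) ≤ Real.sqrt ((2 * a / b ^ 2) ^ 2) := Real.sqrt_le_sqrt hLm
      _ = 2 * a / b ^ 2 := Real.sqrt_sq (by positivity)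
  have hlog2 : Real.log n ^ 2 ≤ 64 * b ^ 2 := by nlinarith
  have hfin : 8 * a / b ^ 2 ≤ 512 * a / Real.log n ^ 2 := by
    rw [div_le_div_iff₀ (by positivity) (by positivity)]
    nlinarith [mul_le_mul_of_nonneg_left hlog2 ha0.le]
  calc 4 * Real.sqrt (L / m) ≤ 4 * (2 * a / b ^ 2) := by linarith
    _ = 8 * a / b ^ 2 := by ring
    _ ≤ 512 * a / Real.log n ^ 2 := hfin

/-- K10 -/
theorem numbers (n m : ℕ) (ε : ℝ) (hn : 2 ≤ n) (hm : n - 1 ≤ m) (hε : 0 < ε) (hε1 : ε < 1) :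
    4 * Real.sqrt (Real.log (2 * (n : ℝ) / ε) / (m : ℝ)) ≤
      512 * (2 / ε) ^ ((1 : ℝ) / 4) / (Real.log (n : ℝ)) ^ 2 := by
  have hn' : (2 : ℝ) ≤ n := by exact_mod_cast hn
  have hn0 : (0 : ℝ) < n := by linarith
  have hm' : (n : ℝ) - 1 ≤ m := by
    have h : ((n - 1 : ℕ) : ℝ) ≤ m := by exact_mod_cast hm
    rwa [Nat.cast_sub (by omega), Nat.cast_one] at h
  obtain ⟨a, ha⟩ : ∃ a : ℝ, a = (2 / ε) ^ ((1 : ℝ) / 4) := ⟨_, rfl⟩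
  obtain ⟨b, hb⟩ : ∃ b : ℝ, b = (n : ℝ) ^ ((1 : ℝ) / 8) := ⟨_, rfl⟩
  have h2e : 0 < 2 / ε := by positivity
  have ha0 : 0 < a := by
    rw [ha]
    exact Real.rpow_pos_of_pos h2e _
  have hb0 : 0 < b := by
    rw [hb]
    exact Real.rpow_pos_of_pos hn0 _
  have ha4 : a ^ 4 = 2 / ε := by
    rw [ha, ← Real.rpow_natCast, ← Real.rpow_mul h2e.le]
    norm_num
  have hb8 : b ^ 8 = (n : ℝ) := by
    rw [hb, ← Real.rpow_natCast, ← Real.rpow_mul hn0.le]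
    norm_num
  rw [← ha]
  have hlogn : Real.log (n : ℝ) ≤ 8 * b := by
    have h := Real.log_le_sub_one_of_pos hb0
    have h8 : Real.log (n : ℝ) = 8 * Real.log b := by
      rw [← hb8, Real.log_pow]
      norm_num
    linarith
  have hlogn0 : 0 < Real.log (n : ℝ) := Real.log_pos (by linarith)
  have hy : 2 * (n : ℝ) / ε = (a ^ 2 * b ^ 4) ^ 2 := by
    have h : (a ^ 2 * b ^ 4) ^ 2 = a ^ 4 * b ^ 8 := by ring
    rw [h, ha4, hb8]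
    ring
  have hL : Real.log (2 * (n : ℝ) / ε) ≤ 2 * (a ^ 2 * b ^ 4) := by
    have h := k10_log_le (2 * (n : ℝ) / ε) (by positivity)
    rw [hy, Real.sqrt_sq (by positivity)] at h
    rw [hy]
    exact h
  exact k10_core (n : ℝ) (m : ℝ) a b _ hn' hm' ha0 hb0 hb8 hL hlogn0 hlogn

end Vale.Agent.H17.FK
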