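import Mathlib

/-! Row K12 (the form of Q2).  For `n ≥ 3`: `1 ≤ log n` (`exp 1 < 3`, `Real.exp_one_lt_d9`,
`Real.le_log_iff_exp_le`).  For `r ≥ 2`: `r / (r - 1) ≤ 2`, so `-2 ≤ -(r / (r - 1))` and
`(log n) ^ (-2 : ℝ) ≤ (log n) ^ (-(r / (r - 1)))` (`Real.rpow_le_rpow_of_exponent_le`, base
`≥ 1`); `(log n) ^ (-2 : ℝ) = 1 / (log n) ^ 2` (`Real.rpow_neg`, `Real.rpow_two` or
`Real.rpow_natCast`). -/

namespace Vale.Agent.H17.FK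

/-- K12 -/
theorem q2_form (n r : ℕ) (hr : 2 ≤ r) (hn : 3 ≤ n) (c : ℝ) (hc : 0 ≤ c) :
    c / (Real.log (n : ℝ)) ^ 2 ≤
      c * (Real.log (n : ℝ)) ^ (-((r : ℝ) / ((r : ℝ) - 1))) := by
  have hn3 : (3 : ℝ) ≤ (n : ℝ) := by exact_mod_cast hn
  have hlog : 1 ≤ Real.log (n : ℝ) := by
    rw [Real.le_log_iff_exp_le (by linarith)]
    have h := Real.exp_one_lt_d9
    linarith
  have hr2 : (2 : ℝ) ≤ (r : ℝ) := by exact_mod_cast hr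
  have hexp : (-2 : ℝ) ≤ -((r : ℝ) / ((r : ℝ) - 1)) := by
    rw [neg_le_neg_iff, div_le_iff₀ (by linarith)]
    linarith
  have h1 : Real.log (n : ℝ) ^ (-2 : ℝ) ≤
      Real.log (n : ℝ) ^ (-((r : ℝ) / ((r : ℝ) - 1))) :=
    Real.rpow_le_rpow_of_exponent_le hlog hexp
  have h2 : Real.log (n : ℝ) ^ (-2 : ℝ) = (Real.log (n : ℝ) ^ 2)⁻¹ := by
    rw [Real.rpow_neg (by linarith), Real.rpow_two]
  rw [div_eq_mul_inv, ← h2]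
  exact mul_le_mul_of_nonneg_left h1 hc

end Vale.Agent.H17.FK
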