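import Mathlib
import Vale.Agent.H17.FK.Defs

/-! Row K11 (the number of edges at a vertex).  The `r`-subsets of `Fin n` containing `v`
correspond to the `(r - 1)`-subsets of `univ.erase v` (`s ↦ s.erase v`, inverse
`t ↦ insert v t`): their number is `choose (n - 1) (r - 1)` (`Finset.card_powersetCard`,
`Finset.card_erase_of_mem`).  `choose_ge`: `N ≤ choose N j` for `1 ≤ j ≤ N - 1`
(`N = n - 1`, `j = r - 1`), e.g. from `Nat.choose_le_choose` / `Nat.choose_symm` / induction:
`choose N 1 = N` and `choose N j ≥ choose N 1` in that range. -/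

namespace Vale.Agent.H17.FK

open Finset

/-- K11 -/
theorem star_card (n r : ℕ) (hr : 1 ≤ r) (v : Fin n) :
    ((Finset.univ : Finset (HEdge n r)).filter fun e => v ∈ e.1).card =
      Nat.choose (n - 1) (r - 1) := by
  have hcard : ((Finset.univ.erase v : Finset (Fin n)).powersetCard (r - 1)).card =
      Nat.choose (n - 1) (r - 1) := by
    rw [Finset.card_powersetCard, Finset.card_erase_of_mem (Finset.mem_univ v),
      Finset.card_univ, Fintype.card_fin]
  rw [← hcard]
  refine Finset.card_bij (fun e _ => e.1.erase v) ?_ ?_ ?_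
  · intro e he
    have hv : v ∈ e.1 := (Finset.mem_filter.mp he).2
    rw [Finset.mem_powersetCard]
    refine ⟨Finset.erase_subset_erase v (Finset.subset_univ _), ?_⟩
    rw [Finset.card_erase_of_mem hv, e.2]
  · intro e he e' he' heq
    have hv : v ∈ e.1 := (Finset.mem_filter.mp he).2
    have hv' : v ∈ e'.1 := (Finset.mem_filter.mp he').2
    apply Subtype.ext
    rw [← Finset.insert_erase hv, ← Finset.insert_erase hv']
    exact congrArg (insert v) heq
  · intro t ht
    rw [Finset.mem_powersetCard] at ht
    have hvt : v ∉ t := fun h => (Finset.mem_erase.mp (ht.1 h)).1 rfl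
    have hc : (insert v t).card = r := by
      rw [Finset.card_insert_of_notMem hvt, ht.2]
      omega
    exact ⟨⟨insert v t, hc⟩, Finset.mem_filter.mpr ⟨Finset.mem_univ _,
      Finset.mem_insert_self v t⟩, Finset.erase_insert hvt⟩

/-- K11 helper: `N ≤ choose N j` for `1 ≤ j < N`. -/
theorem k11_choose (N : ℕ) : ∀ j : ℕ, 1 ≤ j → j < N → N ≤ Nat.choose N j := by
  induction N with
  | zero =>
    intro j _ h
    omega
  | succ N ih =>
    intro j hj hjN
    obtain ⟨i, rfl⟩ : ∃ i, j = i + 1 := ⟨j - 1, by omega⟩
    rw [Nat.choose_succ_succ']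
    by_cases hlt : i + 1 < N
    · have h1 := ih (i + 1) (by omega) hlt
      have h2 : 0 < Nat.choose N i := Nat.choose_pos (by omega)
      omega
    · have hN : N = i + 1 := by omega
      subst hN
      rw [Nat.choose_self, Nat.choose_succ_self_right]

/-- K11 -/
theorem choose_ge (n r : ℕ) (hr : 2 ≤ r) (hrn : r < n) :
    n - 1 ≤ Nat.choose (n - 1) (r - 1) := by
  exact k11_choose (n - 1) (r - 1) (by omega) (by omega)

end Vale.Agent.H17.FK
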