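import Mathlib
import Vale.Agent.H17.FK.Defs
import Vale.Agent.H17.FK.Basic
import Vale.Agent.H17.FK.Thr
import Vale.Agent.H17.FK.Core
import Vale.Agent.H17.FK.Lam
import Vale.Agent.H17.FK.Numbers
import Vale.Agent.H17.FK.Star
import Vale.Agent.H17.FK.Q2Form

/-!
Threshold width of degree-monotone hypergraph properties: assembly from the rows K1 to K12.
-/

namespace Vale.Agent.H17.FK

open Finset

theorem deg_eq (n r : ℕ) (x : Finset (HEdge n r)) (v : Fin n) :
    deg n r x v = (x ∩ (Finset.univ.filter fun e : HEdge n r => v ∈ e.1)).card := by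
  unfold deg
  congr 1
  ext e
  simp

theorem width_eq (n r : ℕ) (ε : ℝ) (P : Finset (Finset (HEdge n r))) :
    width n r ε P = thr (1 - ε) P - thr ε P := rfl

/-- The core theorem. -/
theorem fk_core (n r : ℕ) (hr : 2 ≤ r) (hrn : r < n) (ε : ℝ) (hε : 0 < ε) (hε2 : ε < 1 / 2)
    (P : Finset (Finset (HEdge n r))) (hP : P.Nonempty) (hmono : DegMono n r P) :
    (∀ x ∈ P, ∀ y : Finset (HEdge n r), x ⊆ y → y ∈ P) ∧
    width n r ε P ≤
      4 * Real.sqrt (Real.log (2 * (n : ℝ) / ε) / (Nat.choose (n - 1) (r - 1) : ℝ)) ∧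
    width n r ε P ≤ 512 * (2 / ε) ^ ((1 : ℝ) / 4) / (Real.log (n : ℝ)) ^ 2 ∧
    width n r ε P ≤ 512 * (2 / ε) ^ ((1 : ℝ) / 4) *
      (Real.log (n : ℝ)) ^ (-((r : ℝ) / ((r : ℝ) - 1))) := by
  have hε1 : ε < 1 := by linarith
  have hm_ge : n - 1 ≤ Nat.choose (n - 1) (r - 1) := choose_ge n r hr hrn
  have hm : 0 < Nat.choose (n - 1) (r - 1) := by omega
  have hD : ∀ v : Fin n, ((Finset.univ : Finset (HEdge n r)).filter fun e => v ∈ e.1).card =
      Nat.choose (n - 1) (r - 1) := fun v => star_card n r (by omega) v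
  have hmono' : ∀ x ∈ P, ∀ y : Finset (HEdge n r),
      (∀ v : Fin n, (x ∩ (Finset.univ.filter fun e : HEdge n r => v ∈ e.1)).card ≤
        (y ∩ (Finset.univ.filter fun e : HEdge n r => v ∈ e.1)).card) → y ∈ P := by
    intro x hx y h
    refine hmono x hx y (fun v => ?_)
    rw [deg_eq, deg_eq]
    exact h v
  have hinc : ∀ x ∈ P, ∀ y : Finset (HEdge n r), x ⊆ y → y ∈ P := by
    intro x hx y hxy
    exact hmono' x hx y (fun v => Finset.card_le_card (Finset.inter_subset_inter_right hxy))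
  have huniv : (Finset.univ : Finset (HEdge n r)) ∈ P := by
    obtain ⟨x, hx⟩ := hP
    exact hinc x hx _ (Finset.subset_univ _)
  have h1 : width n r ε P ≤
      4 * Real.sqrt (Real.log (2 * (n : ℝ) / ε) / (Nat.choose (n - 1) (r - 1) : ℝ)) := by
    rw [width_eq]
    by_cases hL : Real.log (2 * (n : ℝ) / ε) ≤ (Nat.choose (n - 1) (r - 1) : ℝ)
    · have h := core_width (fun v : Fin n => (Finset.univ.filter fun e : HEdge n r => v ∈ e.1))
        (Nat.choose (n - 1) (r - 1)) hD hm P hP hmono' ε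
        (Real.sqrt (4 * (Nat.choose (n - 1) (r - 1) : ℝ) * Real.log (2 * (n : ℝ) / ε)))
        hε hε1 (Real.sqrt_nonneg _) (lam_le n _ ε (by omega) hm hε hε1 hL)
        (by
          rw [Fintype.card_fin]
          exact lam_mass n _ ε (by omega) hm hε hε1)
      rw [lam_ratio n _ ε (by omega) hm hε hε1] at h
      exact h
    · push_neg at hL
      exact le_trans (core_width_le_one P huniv ε hε hε1) (lam_trivial n _ ε hm hL)
  have h2 : width n r ε P ≤ 512 * (2 / ε) ^ ((1 : ℝ) / 4) / (Real.log (n : ℝ)) ^ 2 :=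
    le_trans h1 (numbers n _ ε (by omega) hm_ge hε hε1)
  refine ⟨hinc, h1, h2, le_trans h2 ?_⟩
  exact q2_form n r hr (by omega) _ (by positivity)

/-- The thresholds of a nonempty degree-monotone family are attained in `[0, 1]`. -/
theorem fk_attained (n r : ℕ) (ε : ℝ) (hε : 0 < ε) (hε2 : ε < 1 / 2)
    (P : Finset (Finset (HEdge n r))) (hP : P.Nonempty) (hmono : DegMono n r P) :
    (0 ≤ pThr n r ε P ∧ pThr n r ε P ≤ 1 ∧ ε ≤ mu n r (pThr n r ε P) P) ∧
    (0 ≤ pThr n r (1 - ε) P ∧ pThr n r (1 - ε) P ≤ 1 ∧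
      1 - ε ≤ mu n r (pThr n r (1 - ε) P) P) := by
  have huniv : (Finset.univ : Finset (HEdge n r)) ∈ P := by
    obtain ⟨x, hx⟩ := hP
    refine hmono x hx _ (fun v => ?_)
    unfold deg
    exact Finset.card_le_card (Finset.filter_subset_filter _ (Finset.subset_univ _))
  have h1 : muF 1 P = 1 := muF_one P huniv
  exact ⟨thr_spec ε P (by rw [h1]; linarith), thr_spec (1 - ε) P (by rw [h1]; linarith)⟩

end Vale.Agent.H17.FK
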