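import Mathlib
import Vale.Agent.H17.FK.JDefs
import Vale.Agent.H17.FK.Main

/-!
Threshold width of families of hypergraphs that are monotone in the `j`-degrees: assembly from
the rows K1 to K12 (the abstract core is applied with the `j`-sets as index set).
-/

namespace Vale.Agent.H17.FK

open Finset

/-- The number of `r`-sets containing a given `j`-set. -/
theorem jstar_card (n r j : ℕ) (hjr : j ≤ r) (S : HEdge n j) :
    ((Finset.univ : Finset (HEdge n r)).filter fun e => S.1 ⊆ e.1).card =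
      Nat.choose (n - j) (r - j) := by
  have hcard : (((S.1)ᶜ : Finset (Fin n)).powersetCard (r - j)).card =
      Nat.choose (n - j) (r - j) := by
    rw [Finset.card_powersetCard, Finset.card_compl, Fintype.card_fin, S.2]
  rw [← hcard]
  refine Finset.card_bij (fun e _ => e.1 \ S.1) ?_ ?_ ?_
  · intro e he
    have hS : S.1 ⊆ e.1 := (Finset.mem_filter.mp he).2
    rw [Finset.mem_powersetCard]
    refine ⟨?_, ?_⟩
    · intro w hw
      rw [Finset.mem_compl]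
      exact (Finset.mem_sdiff.mp hw).2
    · rw [Finset.card_sdiff_of_subset hS, e.2, S.2]
  · intro e he e' he' heq
    have hS : S.1 ⊆ e.1 := (Finset.mem_filter.mp he).2
    have hS' : S.1 ⊆ e'.1 := (Finset.mem_filter.mp he').2
    apply Subtype.ext
    rw [← Finset.sdiff_union_of_subset hS, ← Finset.sdiff_union_of_subset hS']
    exact congrArg (fun t => t ∪ S.1) heq
  · intro t ht
    rw [Finset.mem_powersetCard] at ht
    have hdisj : Disjoint t S.1 := by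
      rw [Finset.disjoint_left]
      intro w hw hwS
      exact (Finset.mem_compl.mp (ht.1 hw)) hwS
    have hc : (t ∪ S.1).card = r := by
      rw [Finset.card_union_of_disjoint hdisj, ht.2, S.2]
      omega
    refine ⟨⟨t ∪ S.1, hc⟩, Finset.mem_filter.mpr ⟨Finset.mem_univ _, ?_⟩, ?_⟩
    · exact Finset.subset_union_right
    · show (t ∪ S.1) \ S.1 = t
      rw [Finset.union_sdiff_right]
      exact Finset.sdiff_eq_self_of_disjoint hdisj

theorem jdeg_eq (n r j : ℕ) (x : Finset (HEdge n r)) (S : HEdge n j) :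
    jdeg n r j x S = (x ∩ (Finset.univ.filter fun e : HEdge n r => S.1 ⊆ e.1)).card := by
  unfold jdeg
  congr 1
  ext e
  simp

/-- Numbers for the `j`-degree bound. -/
theorem numbers_j (n r j m : ℕ) (ε : ℝ) (hj : 1 ≤ j) (hjr : j < r) (hrn : r < n)
    (hm : n - r + 1 ≤ m) (hε : 0 < ε) (hε1 : ε < 1) :
    4 * Real.sqrt (Real.log (2 * (Nat.choose n j : ℝ) / ε) / (m : ℝ)) ≤
      512 * (r : ℝ) * (2 / ε) ^ ((1 : ℝ) / 4) / (Real.log (n : ℝ)) ^ 2 := by
  have hn2 : 2 ≤ n := by omega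
  have hnum := numbers n (n - 1) ε hn2 le_rfl hε hε1
  have hnpos : (0 : ℝ) < (n : ℝ) := by exact_mod_cast (by omega : 0 < n)
  have hrpos : (0 : ℝ) < (r : ℝ) := by exact_mod_cast (by omega : 0 < r)
  have hmpos : (0 : ℝ) < (m : ℝ) := by exact_mod_cast (by omega : 0 < m)
  have hn1pos : (0 : ℝ) < ((n - 1 : ℕ) : ℝ) := by exact_mod_cast (by omega : 0 < n - 1)
  -- `L' ≤ j L`
  have hx : (1 : ℝ) ≤ 2 * (n : ℝ) / ε := by
    rw [le_div_iff₀ hε]
    have : (1 : ℝ) ≤ (n : ℝ) := by exact_mod_cast (by omega : 1 ≤ n)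
    linarith
  have hL0 : 0 ≤ Real.log (2 * (n : ℝ) / ε) := Real.log_nonneg hx
  have hchoose : (Nat.choose n j : ℝ) ≤ (n : ℝ) ^ j := by
    exact_mod_cast Nat.choose_le_pow n j
  have hcpos : (0 : ℝ) < (Nat.choose n j : ℝ) := by
    exact_mod_cast Nat.choose_pos (by omega : j ≤ n)
  have h2e : (1 : ℝ) ≤ 2 / ε := by
    rw [le_div_iff₀ hε]
    linarith
  have hle : 2 * (Nat.choose n j : ℝ) / ε ≤ (2 * (n : ℝ) / ε) ^ j := by
    have h1 : (2 * (n : ℝ) / ε) ^ j = (2 / ε) ^ j * (n : ℝ) ^ j := by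
      rw [← mul_pow]
      congr 1
      ring
    rw [h1]
    have h2 : 2 / ε ≤ (2 / ε) ^ j := le_self_pow₀ h2e (by omega)
    have h3 : 2 * (Nat.choose n j : ℝ) / ε = (2 / ε) * (Nat.choose n j : ℝ) := by ring
    rw [h3]
    have h4 : (0 : ℝ) ≤ 2 / ε := by positivity
    have h5 : (0 : ℝ) ≤ (n : ℝ) ^ j := by positivity
    calc (2 / ε) * (Nat.choose n j : ℝ) ≤ (2 / ε) * (n : ℝ) ^ j :=
          mul_le_mul_of_nonneg_left hchoose h4
      _ ≤ (2 / ε) ^ j * (n : ℝ) ^ j := mul_le_mul_of_nonneg_right h2 h5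
  have hL' : Real.log (2 * (Nat.choose n j : ℝ) / ε) ≤ (j : ℝ) * Real.log (2 * (n : ℝ) / ε) := by
    have h1 : Real.log (2 * (Nat.choose n j : ℝ) / ε) ≤ Real.log ((2 * (n : ℝ) / ε) ^ j) :=
      Real.log_le_log (by positivity) hle
    rw [Real.log_pow] at h1
    exact h1
  have hjr' : (j : ℝ) ≤ (r : ℝ) := by exact_mod_cast hjr.le
  have hL'' : Real.log (2 * (Nat.choose n j : ℝ) / ε) ≤ (r : ℝ) * Real.log (2 * (n : ℝ) / ε) :=
    le_trans hL' (mul_le_mul_of_nonneg_right hjr' hL0)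
  -- `n - 1 ≤ r m`
  have hnat : n - 1 ≤ r * m := by
    have h1 : r * (n - r + 1) ≤ r * m := Nat.mul_le_mul_left _ hm
    have h2 : n - 1 ≤ r * (n - r + 1) := by
      obtain ⟨a, rfl⟩ : ∃ a, n = r + a + 1 := ⟨n - r - 1, by omega⟩
      have h3 : r + a + 1 - r + 1 = a + 2 := by omega
      rw [h3]
      have h4 : r + a + 1 - 1 = r + a := by omega
      rw [h4]
      nlinarith
    omega
  have hreal : ((n - 1 : ℕ) : ℝ) ≤ (r : ℝ) * (m : ℝ) := by exact_mod_cast hnat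
  -- ratio
  have hratio : Real.log (2 * (Nat.choose n j : ℝ) / ε) / (m : ℝ) ≤
      (r : ℝ) ^ 2 * (Real.log (2 * (n : ℝ) / ε) / ((n - 1 : ℕ) : ℝ)) := by
    rw [div_le_iff₀ hmpos]
    have h1 : (r : ℝ) ^ 2 * (Real.log (2 * (n : ℝ) / ε) / ((n - 1 : ℕ) : ℝ)) * (m : ℝ) =
        (r : ℝ) * Real.log (2 * (n : ℝ) / ε) * ((r : ℝ) * (m : ℝ) / ((n - 1 : ℕ) : ℝ)) := by
      field_simp
    rw [h1]
    have h2 : (1 : ℝ) ≤ (r : ℝ) * (m : ℝ) / ((n - 1 : ℕ) : ℝ) := by
      rw [le_div_iff₀ hn1pos]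
      linarith
    have h3 : 0 ≤ (r : ℝ) * Real.log (2 * (n : ℝ) / ε) := by positivity
    calc Real.log (2 * (Nat.choose n j : ℝ) / ε) ≤ (r : ℝ) * Real.log (2 * (n : ℝ) / ε) := hL''
      _ = (r : ℝ) * Real.log (2 * (n : ℝ) / ε) * 1 := by ring
      _ ≤ (r : ℝ) * Real.log (2 * (n : ℝ) / ε) * ((r : ℝ) * (m : ℝ) / ((n - 1 : ℕ) : ℝ)) :=
          mul_le_mul_of_nonneg_left h2 h3
  have hsqrt : Real.sqrt (Real.log (2 * (Nat.choose n j : ℝ) / ε) / (m : ℝ)) ≤
      (r : ℝ) * Real.sqrt (Real.log (2 * (n : ℝ) / ε) / ((n - 1 : ℕ) : ℝ)) := by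
    have h1 := Real.sqrt_le_sqrt hratio
    rw [Real.sqrt_mul (sq_nonneg _), Real.sqrt_sq hrpos.le] at h1
    exact h1
  calc 4 * Real.sqrt (Real.log (2 * (Nat.choose n j : ℝ) / ε) / (m : ℝ))
      ≤ 4 * ((r : ℝ) * Real.sqrt (Real.log (2 * (n : ℝ) / ε) / ((n - 1 : ℕ) : ℝ))) := by
        linarith
    _ = (r : ℝ) * (4 * Real.sqrt (Real.log (2 * (n : ℝ) / ε) / ((n - 1 : ℕ) : ℝ))) := by ring
    _ ≤ (r : ℝ) * (512 * (2 / ε) ^ ((1 : ℝ) / 4) / (Real.log (n : ℝ)) ^ 2) :=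
        mul_le_mul_of_nonneg_left hnum hrpos.le
    _ = 512 * (r : ℝ) * (2 / ε) ^ ((1 : ℝ) / 4) / (Real.log (n : ℝ)) ^ 2 := by ring

/-- The core theorem for `j`-degrees. -/
theorem fk_core_j (n r j : ℕ) (hj : 1 ≤ j) (hjr : j < r) (hrn : r < n) (ε : ℝ) (hε : 0 < ε)
    (hε2 : ε < 1 / 2) (P : Finset (Finset (HEdge n r))) (hP : P.Nonempty)
    (hmono : JDegMono n r j P) :
    (∀ x ∈ P, ∀ y : Finset (HEdge n r), x ⊆ y → y ∈ P) ∧
    ((0 ≤ pThr n r ε P ∧ pThr n r ε P ≤ 1 ∧ ε ≤ mu n r (pThr n r ε P) P) ∧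
      (0 ≤ pThr n r (1 - ε) P ∧ pThr n r (1 - ε) P ≤ 1 ∧
        1 - ε ≤ mu n r (pThr n r (1 - ε) P) P)) ∧
    width n r ε P ≤
      4 * Real.sqrt (Real.log (2 * (Nat.choose n j : ℝ) / ε) /
        (Nat.choose (n - j) (r - j) : ℝ)) ∧
    width n r ε P ≤ 512 * (r : ℝ) * (2 / ε) ^ ((1 : ℝ) / 4) / (Real.log (n : ℝ)) ^ 2 ∧
    width n r ε P ≤ 512 * (r : ℝ) * (2 / ε) ^ ((1 : ℝ) / 4) *
      (Real.log (n : ℝ)) ^ (-((r : ℝ) / ((r : ℝ) - 1))) := by
  have hε1 : ε < 1 := by linarith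
  have hm_ge : n - r + 1 ≤ Nat.choose (n - j) (r - j) := by
    have h := k11_choose (n - j) (r - j) (by omega) (by omega)
    omega
  have hm : 0 < Nat.choose (n - j) (r - j) := by omega
  have hN : 1 ≤ Nat.choose n j := Nat.choose_pos (by omega)
  have hcardJ : Fintype.card (HEdge n j) = Nat.choose n j := by
    rw [Fintype.card_finset_len, Fintype.card_fin]
  have hD : ∀ S : HEdge n j,
      ((Finset.univ : Finset (HEdge n r)).filter fun e => S.1 ⊆ e.1).card =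
      Nat.choose (n - j) (r - j) := fun S => jstar_card n r j hjr.le S
  have hmono' : ∀ x ∈ P, ∀ y : Finset (HEdge n r),
      (∀ S : HEdge n j, (x ∩ (Finset.univ.filter fun e : HEdge n r => S.1 ⊆ e.1)).card ≤
        (y ∩ (Finset.univ.filter fun e : HEdge n r => S.1 ⊆ e.1)).card) → y ∈ P := by
    intro x hx y h
    refine hmono x hx y (fun S => ?_)
    rw [jdeg_eq, jdeg_eq]
    exact h S
  have hinc : ∀ x ∈ P, ∀ y : Finset (HEdge n r), x ⊆ y → y ∈ P := by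
    intro x hx y hxy
    exact hmono' x hx y (fun S => Finset.card_le_card (Finset.inter_subset_inter_right hxy))
  have huniv : (Finset.univ : Finset (HEdge n r)) ∈ P := by
    obtain ⟨x, hx⟩ := hP
    exact hinc x hx _ (Finset.subset_univ _)
  have hone : muF 1 P = 1 := muF_one P huniv
  have hatt : (0 ≤ pThr n r ε P ∧ pThr n r ε P ≤ 1 ∧ ε ≤ mu n r (pThr n r ε P) P) ∧
      (0 ≤ pThr n r (1 - ε) P ∧ pThr n r (1 - ε) P ≤ 1 ∧
        1 - ε ≤ mu n r (pThr n r (1 - ε) P) P) :=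
    ⟨thr_spec ε P (by rw [hone]; linarith), thr_spec (1 - ε) P (by rw [hone]; linarith)⟩
  have h1 : width n r ε P ≤
      4 * Real.sqrt (Real.log (2 * (Nat.choose n j : ℝ) / ε) /
        (Nat.choose (n - j) (r - j) : ℝ)) := by
    rw [width_eq]
    by_cases hL : Real.log (2 * (Nat.choose n j : ℝ) / ε) ≤ (Nat.choose (n - j) (r - j) : ℝ)
    · have h := core_width
        (fun S : HEdge n j => (Finset.univ.filter fun e : HEdge n r => S.1 ⊆ e.1))
        (Nat.choose (n - j) (r - j)) hD hm P hP hmono' ε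
        (Real.sqrt (4 * (Nat.choose (n - j) (r - j) : ℝ) *
          Real.log (2 * (Nat.choose n j : ℝ) / ε)))
        hε hε1 (Real.sqrt_nonneg _) (lam_le (Nat.choose n j) _ ε hN hm hε hε1 hL)
        (by
          rw [hcardJ]
          exact lam_mass (Nat.choose n j) _ ε hN hm hε hε1)
      rw [lam_ratio (Nat.choose n j) _ ε hN hm hε hε1] at h
      exact h
    · push_neg at hL
      exact le_trans (core_width_le_one P huniv ε hε hε1)
        (lam_trivial (Nat.choose n j) _ ε hm hL)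
  have h2 : width n r ε P ≤
      512 * (r : ℝ) * (2 / ε) ^ ((1 : ℝ) / 4) / (Real.log (n : ℝ)) ^ 2 :=
    le_trans h1 (numbers_j n r j _ ε hj hjr hrn hm_ge hε hε1)
  refine ⟨hinc, hatt, h1, h2, le_trans h2 ?_⟩
  exact q2_form n r (by omega) (by omega) _ (by positivity)

end Vale.Agent.H17.FK
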